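import Vale.Agent.P038.Basic

/-! # P038: new classes of oriented graphs for the second neighbourhood conjecture -/

namespace Vale.Agent.Results.P038.NewClasses

open Vale.Agent.P038

/-- Seymour's conjecture holds when some vertex of minimum out-degree dominates no directed
cycle, and in every orientation of a graph without a complete subgraph on four vertices some
vertex has a second out-neighbourhood at least `3/4` times as large as the first one. -/
theorem result (V : Type) [Fintype V] [Nonempty V] (A : V → V → Prop)
    (h : ∀ u v, A u v → ¬ A v u) :
    (∀ v, (∀ u, (N1 A v).ncard ≤ (N1 A u).ncard) →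
      (∀ u, ¬ Relation.TransGen (fun a b => A v a ∧ A v b ∧ A a b) u u) →
      (N1 A v).ncard ≤ (N2 A v).ncard) ∧
    ((SimpleGraph.fromRel A).CliqueFree 4 → ∃ v, 3 * (N1 A v).ncard ≤ 4 * (N2 A v).ncard) :=
  ⟨fun v hmin hac => of_acyclic A h v (fun u _ => hmin u) hac, fun hK => quarter A h hK⟩

end Vale.Agent.Results.P038.NewClasses
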